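import Vale.Agent.P329.H962.Rows

namespace Vale.Agent.P329.H483

open H259 (pw pw_zero pw_succ pw_one pw_add pw_succ' pw_mul pw_length)
open H962 (N FS Unc AP nc Mem Lc Rt CH Stg Unt Wn)

section

variable {α A A' B : Type} {p : ℕ} {w : List α → ZMod p}

theorem FS_of_key {K : Type} {G : List α → A} (κ : List α → K) (hf : (Set.range κ).Finite)
    (h : ∀ X X', κ X = κ X' → ∀ Y, G (Y ++ X) = G (Y ++ X')) : FS G := by
  classical
  refine (hf.image fun k => if hx : ∃ x, κ x = k then fun Y => G (Y ++ hx.choose)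
    else fun Y => G Y).subset ?_
  rintro _ ⟨x, rfl⟩
  refine ⟨κ x, ⟨x, rfl⟩, ?_⟩
  have hx : ∃ x', κ x' = κ x := ⟨x, rfl⟩
  change (if hx : ∃ x', κ x' = κ x then fun Y => G (Y ++ hx.choose) else fun Y => G Y) =
    fun Y => G (Y ++ x)
  rw [dif_pos hx]
  funext Y
  exact h _ _ hx.choose_spec Y

theorem pw_nil_left (n : ℕ) : pw ([] : List α) n = [] := by
  induction n with
  | zero => rfl
  | succ n ih => rw [pw_succ, ih]; rfl

theorem Unc.suf {V V' X : List α} (h : Unc w V X) (hs : V' <:+ V) : Unc w V' X :=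
  fun B hB hne => h B (hB.trans hs) hne

theorem nc_le_length (S c : List α) : nc w S c ≤ S.length := by
  induction S with
  | nil => exact Nat.zero_le _
  | cons a S ih =>
    rw [nc, List.length_cons]
    split_ifs <;> omega

theorem Lc.comp {G : List α → A} (hG : Lc w G) (f : A → A') : Lc w fun X => f (G X) := by
  obtain ⟨h1, h2, n, h3⟩ := hG
  refine ⟨FS_of_key _ h1 fun X X' h Y => congrArg f (congrFun h Y), ?_, n, ?_⟩
  · intro v
    obtain ⟨n0, hn⟩ := h2 v
    exact ⟨n0, fun n hn' X Y hU => congrArg f (hn n hn' X Y hU)⟩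
  · exact fun c c' S hc hc' hn => congrArg f (h3 c c' S hc hc' hn)

theorem Lc.prod {G : List α → A} {G' : List α → A'} (hG : Lc w G) (hG' : Lc w G') :
    Lc w fun X => (G X, G' X) := by
  obtain ⟨h1, h2, n, h3⟩ := hG
  obtain ⟨h1', h2', n', h3'⟩ := hG'
  refine ⟨FS_of_key (fun X => ((fun Y : List α => G (Y ++ X)), fun Y : List α => G' (Y ++ X)))
    ((Set.Finite.prod h1 h1').subset ?_) ?_, ?_, max n n', ?_⟩
  · rintro _ ⟨X, rfl⟩
    exact ⟨⟨X, rfl⟩, ⟨X, rfl⟩⟩
  · intro X X' h Y
    rw [Prod.mk.injEq] at h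
    exact Prod.ext (congrFun h.1 Y) (congrFun h.2 Y)
  · intro v
    obtain ⟨n0, hn⟩ := h2 v
    obtain ⟨n0', hn'⟩ := h2' v
    refine ⟨max n0 n0', fun n hm X Y hU => ?_⟩
    exact Prod.ext (hn n (le_trans (le_max_left _ _) hm) X Y hU)
      (hn' n (le_trans (le_max_right _ _) hm) X Y hU)
  · intro c c' S hc hc' hm
    exact Prod.ext (h3 c c' S hc hc' (le_trans (le_max_left _ _) hm))
      (h3' c c' S hc hc' (le_trans (le_max_right _ _) hm))

theorem Lc.const (a : A) : Lc w fun _ : List α => a :=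
  ⟨FS_of_key (fun _ => ()) (Set.toFinite _) fun _ _ _ _ => rfl,
    fun _ => ⟨0, fun _ _ _ _ _ => rfl⟩, 0, fun _ _ _ _ _ _ => rfl⟩

theorem Lc.pi : ∀ (L : ℕ) {G : Fin L → List α → A}, (∀ i, Lc w (G i)) →
    Lc w fun X i => G i X := by
  intro L
  induction L with
  | zero =>
    intro G _
    have := Lc.const (w := w) (fun i : Fin 0 => (i.elim0 : A))
    refine Eq.mp (congrArg (Lc w) ?_) this
    funext X i
    exact i.elim0
  | succ L ih =>
    intro G hG
    have h := Lc.comp (Lc.prod (hG 0) (ih (G := fun i => G i.succ) fun i => hG i.succ))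
      (fun x : A × (Fin L → A) => (Fin.cons x.1 x.2 : Fin (L + 1) → A))
    refine Eq.mp (congrArg (Lc w) ?_) h
    funext X i
    refine Fin.cases ?_ (fun i => ?_) i
    · rfl
    · rfl

theorem Lc.tail {G : List α → A} (hG : Lc w G) : Lc w fun X => G X.tail := by
  obtain ⟨h1, h2, n, h3⟩ := hG
  have hfin : (Set.range G).Finite := by
    refine (Set.Finite.image (fun F : List α → A => F []) h1).subset ?_
    rintro _ ⟨X, rfl⟩
    exact ⟨_, ⟨X, rfl⟩, rfl⟩
  refine ⟨FS_of_key (fun X => ((fun Y : List α => G (Y ++ X)), G X.tail))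
    ((Set.Finite.prod h1 hfin).subset ?_) ?_, ?_, n + 1, ?_⟩
  · rintro _ ⟨X, rfl⟩
    exact ⟨⟨X, rfl⟩, ⟨X.tail, rfl⟩⟩
  · intro X X' h Y
    rw [Prod.mk.injEq] at h
    cases Y with
    | nil => exact h.2
    | cons a Y => exact congrFun h.1 Y
  · intro v
    cases v with
    | nil =>
      refine ⟨0, fun n _ X Y _ => ?_⟩
      rw [pw_nil_left, pw_nil_left]
    | cons a v =>
      obtain ⟨n0, hn⟩ := h2 (a :: v)
      refine ⟨n0 + 1, fun n hm X Y hU => ?_⟩
      obtain ⟨m, rfl⟩ : ∃ m, n = m + 1 := ⟨n - 1, by omega⟩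
      cases Y with
      | cons b Y => exact hn _ (by omega) X Y hU
      | nil =>
        have h4 := hn m (by omega) X v (Unc.suf hU ⟨a :: v, by rw [pw_succ]⟩)
        change G ((pw (a :: v) (m + 1) ++ X).tail) = G ((pw (a :: v) (m + 1 + 1) ++ X).tail)
        rw [pw_succ, pw_succ (a :: v) (m + 1)]
        simpa [List.append_assoc] using h4
  · intro c c' S hc hc' hm
    cases S with
    | nil => simp [nc] at hm
    | cons a S =>
      refine h3 c c' S hc hc' ?_
      rw [nc] at hm
      split_ifs at hm <;> omega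

theorem Lc.drop {G : List α → A} (hG : Lc w G) (k : ℕ) : Lc w fun X => G (X.drop k) := by
  induction k with
  | zero => simpa using hG
  | succ k ih =>
    refine Eq.mp (congrArg (Lc w) ?_) (Lc.tail ih)
    funext X
    rw [List.drop_tail]

theorem Lc.take [Finite α] (J : ℕ) : Lc w fun X : List α => X.take J := by
  refine ⟨FS_of_key (fun X => X.take J) ?_ ?_, ?_, J, ?_⟩
  · refine (List.finite_length_le α J).subset ?_
    rintro _ ⟨X, rfl⟩
    exact List.length_take_le _ _
  · intro X X' h Y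
    rw [List.take_append, List.take_append]
    congr 1
    have h4 := congrArg (List.take (J - Y.length)) h
    rwa [List.take_take, List.take_take, Nat.min_eq_left (Nat.sub_le _ _)] at h4
  · intro v
    refine ⟨J, fun n hn X Y _ => ?_⟩
    cases v with
    | nil => rw [pw_nil_left, pw_nil_left]
    | cons a v =>
      change (Y ++ (pw (a :: v) n ++ X)).take J = (Y ++ (pw (a :: v) (n + 1) ++ X)).take J
      rw [pw_succ' (a :: v) n, List.append_assoc, ← List.append_assoc Y, ← List.append_assoc Y]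
      have hlen : J ≤ (Y ++ pw (a :: v) n).length := by
        rw [List.length_append, pw_length, List.length_cons]
        nlinarith
      rw [List.take_append_of_le_length hlen, List.take_append_of_le_length hlen]
  · intro c c' S _ _ hn
    have hlen : J ≤ S.length := hn.trans (nc_le_length S c)
    change (S ++ c).take J = (S ++ c').take J
    rw [List.take_append_of_le_length hlen, List.take_append_of_le_length hlen]

theorem Mem_of_Rt {f : List α → A} (h : Rt w f) : Mem w 1 f := by
  intro c c' S hc hc' hn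
  refine h c c' S hc hc' ?_
  rintro rfl
  simp [nc] at hn

theorem Stg.lc (h : Stg w) : Lc w w := ⟨h.fs, h.ap, 1, Mem_of_Rt h.rt⟩

theorem Stg.unt (h : Stg w) : Unt w w := ⟨fun _ h => h, h.fs, h.ap, h.rt, h.ch⟩

theorem Unt.lc {h : List α → ZMod p} (hu : Unt w h) : Lc w h := ⟨hu.fs, hu.ap, 1, Mem_of_Rt hu.rt⟩

theorem Lc.empty : Lc w fun X : List α => X.isEmpty := by
  refine ⟨FS_of_key (fun X => X.isEmpty) (Set.toFinite _) ?_, ?_, 1, ?_⟩
  · intro X X' h Y
    cases Y with
    | nil => exact h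
    | cons a Y => rfl
  · intro v
    refine ⟨1, fun n hn X Y _ => ?_⟩
    cases v with
    | nil => rw [pw_nil_left, pw_nil_left]
    | cons a v =>
      obtain ⟨m, rfl⟩ : ∃ m, n = m + 1 := ⟨n - 1, by omega⟩
      rw [pw_succ, pw_succ]
      cases Y <;> rfl
  · intro c c' S _ _ hn
    cases S with
    | nil => simp [nc] at hn
    | cons a S => rfl

theorem Lc.len (L : ℕ) : Lc w fun X : List α => decide (L ≤ X.length) := by
  cases L with
  | zero => simpa using Lc.const (w := w) true
  | succ L =>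
    refine Eq.mp (congrArg (Lc w) ?_) (Lc.comp (Lc.drop (Lc.empty (w := w)) L) fun b => !b)
    funext X
    have h1 : (X.drop L).isEmpty = decide (X.length ≤ L) := by
      rw [Bool.eq_iff_iff, List.isEmpty_iff, List.drop_eq_nil_iff, decide_eq_true_iff]
    rw [h1, Bool.eq_iff_iff]
    simp

theorem Lc.win {β : List α → B} (hβ : Lc w β) (L : ℕ) (F : (ℕ → B) → A) (a : A) (hF : Wn L F) :
    Lc w fun X => if L ≤ X.length then F (fun i => β (X.drop i)) else a := by
  classical
  have h := Lc.comp (Lc.prod (Lc.len (w := w) L) (Lc.pi L (G := fun i X => β (X.drop i)) fun i =>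
    Lc.drop hβ i)) (fun x : Bool × (Fin L → B) => if x.1 = true then
      F (fun i => if h : i < L then x.2 ⟨i, h⟩ else β []) else a)
  refine Eq.mp (congrArg (Lc w) ?_) h
  funext X
  by_cases hX : L ≤ X.length
  · simp only [hX, decide_true, if_true]
    apply hF
    intro i hi
    simp [hi]
  · simp [hX]

end

theorem rowC : H962.RowC := by
  intro α p w
  refine ⟨fun A A' f G h => Lc.comp h f, fun A A' G G' h h' => Lc.prod h h',
    fun A L G h => Lc.pi L h, fun _ A G h => Lc.tail h, fun _ A G h k => Lc.drop h k,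
    fun J => Lc.take J, fun h => Stg.lc h, fun h => Stg.unt h, fun h hu => Unt.lc hu,
    fun _ B A β hβ L F a hF => Lc.win hβ L F a hF⟩

end Vale.Agent.P329.H483
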