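import Vale.Agent.P329.H157.Sub

namespace Vale.Agent.P329.H483

open H259 (pw pw_zero pw_succ pw_one pw_add pw_succ' pw_mul pw_length FQ PP lq)
open H157 (sf_of)

variable {α τ : Type} {p : ℕ}

/-- finitely many residuals -/
def FS (f : List α → τ) : Prop :=
  (Set.range fun X : List α => fun Y : List α => f (Y ++ X)).Finite

/-- no cut inside `V` over `X` -/
def Unc (w : List α → ZMod p) (V X : List α) : Prop :=
  ∀ B, B ≠ [] → B <:+ V → w (B ++ X) = 0

def AP (w : List α → ZMod p) (G : List α → τ) : Prop :=
  ∀ v : List α, ∃ N, ∀ n, N ≤ n → ∀ X Y, Unc w (pw v n) X →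
    G (Y ++ pw v n ++ X) = G (Y ++ pw v (n + 1) ++ X)

open Classical in
/-- number of cuts inside `S` over `c` -/
noncomputable def nc (w : List α → ZMod p) : List α → List α → ℕ
  | [], _ => 0
  | x :: S, c => nc w S c + if w (x :: S ++ c) = 0 then 0 else 1

def Mem (w : List α → ZMod p) (n : ℕ) (G : List α → τ) : Prop :=
  ∀ S c c', w c ≠ 0 → w c' ≠ 0 → n ≤ nc w S c → G (S ++ c) = G (S ++ c')

def Rt (w : List α → ZMod p) (f : List α → τ) : Prop :=
  ∀ r c c', w c ≠ 0 → w c' ≠ 0 → r ≠ [] → f (r ++ c) = f (r ++ c')

section basic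

variable {w : List α → ZMod p}

theorem nc_append (Y R c : List α) : nc w (Y ++ R) c = nc w R c + nc w Y (R ++ c) := by
  induction Y with
  | nil => simp [nc]
  | cons x Y ih =>
    rw [List.cons_append, nc, nc, ih]
    simp only [List.cons_append, List.append_assoc]
    ring

theorem nc_congr {Z Z' : List α} (h : ∀ Y, Y ≠ [] → w (Y ++ Z) = w (Y ++ Z')) (Y : List α) :
    nc w Y Z = nc w Y Z' := by
  induction Y with
  | nil => rfl
  | cons x Y ih => rw [nc, nc, ih, h (x :: Y) (by simp)]

theorem nc_shift (Y Z : List α) : nc w Y Z = nc (fun T => w (T ++ Z)) Y [] := by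
  induction Y with
  | nil => rfl
  | cons x Y ih => simp [nc, ih]

theorem unc_iff {V X : List α} : Unc w V X ↔ nc w V X = 0 := by
  induction V with
  | nil =>
    constructor
    · intro _; rfl
    · intro _ B hB hs
      exact absurd (List.suffix_nil.mp hs) hB
  | cons x V ih =>
    constructor
    · intro h
      rw [nc, ih.mp fun B hB hs => h B hB (hs.trans (List.suffix_cons x V)),
        if_pos (h (x :: V) (by simp) List.suffix_rfl)]
    · intro h
      rw [nc] at h
      have h1 : nc w V X = 0 := by omega
      have h2 : w (x :: V ++ X) = 0 := by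
        by_contra hne
        rw [if_neg hne] at h
        omega
      intro B hB hs
      rcases List.suffix_cons_iff.mp hs with rfl | hs
      · exact h2
      · exact ih.mpr h1 B hB hs

theorem nc_pump {V Z : List α} {N : ℕ}
    (hN : ∀ n, N ≤ n → ∀ X Y, Unc w (pw V n) X →
      w (Y ++ pw V n ++ X) = w (Y ++ pw V (n + 1) ++ X)) {k : ℕ} (hk : N + 1 ≤ k)
    (hu : nc w (pw V k) Z = 0) (Y : List α) :
    nc w (Y ++ pw V (k + 1)) Z = nc w (Y ++ pw V k) Z := by
  obtain ⟨k, rfl⟩ : ∃ j, k = j + 1 := ⟨k - 1, by omega⟩
  have h0 : nc w (pw V k) Z = 0 := by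
    rw [pw_succ, nc_append] at hu
    omega
  have h1 : ∀ Y', Y' ≠ [] → w (Y' ++ (pw V k ++ Z)) = w (Y' ++ (pw V (k + 1) ++ Z)) := by
    intro Y' _
    have := hN k (by omega) Z Y' (unc_iff.mpr h0)
    simpa [List.append_assoc] using this
  have h2 : ∀ Y', Y' ≠ [] → w (Y' ++ (pw V (k + 1) ++ Z)) = w (Y' ++ (pw V (k + 1 + 1) ++ Z)) := by
    intro Y' _
    have := hN (k + 1) (by omega) Z Y' (unc_iff.mpr hu)
    simpa [List.append_assoc] using this
  have h3 : nc w V (pw V (k + 1) ++ Z) = 0 := by
    rw [← nc_congr h1]
    rw [pw_succ, nc_append] at hu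
    omega
  have h4 : nc w (pw V (k + 1 + 1)) Z = 0 := by
    rw [pw_succ, nc_append, h3, hu]
  rw [nc_append, nc_append, h4, hu, nc_congr h2]

theorem chunk {V : List α} {K : ℕ} : ∀ (m n : ℕ) (Z : List α), (m + 1) * K ≤ n →
    nc w (pw V n) Z ≤ m → ∃ a b, n = a + K + b ∧ nc w (pw V K) (pw V b ++ Z) = 0 := by
  intro m
  induction m with
  | zero =>
    intro n Z hn h
    refine ⟨n - K, 0, by omega, ?_⟩
    have e : n = (n - K) + K := by omega
    rw [e, pw_add, nc_append] at h
    simpa using (by omega : nc w (pw V K) Z = 0)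
  | succ m ih =>
    intro n Z hn h
    have hK : (m + 1) * K + K ≤ n := by
      have : (m + 1 + 1) * K = (m + 1) * K + K := by ring
      omega
    by_cases h0 : nc w (pw V K) Z = 0
    · exact ⟨n - K, 0, by omega, by simpa using h0⟩
    · have e : n = (n - K) + K := by omega
      rw [e, pw_add, nc_append] at h
      obtain ⟨a, b, h1, h2⟩ := ih (n - K) (pw V K ++ Z) (by omega) (by omega)
      refine ⟨a, b + K, by omega, ?_⟩
      rw [pw_add, List.append_assoc]
      exact h2

theorem pw_reverse (v : List α) (n : ℕ) : (pw v n).reverse = pw v.reverse n := by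
  induction n with
  | zero => rfl
  | succ n ih => rw [pw_succ, List.reverse_append, ih, pw_succ']

theorem finite_of_key {X K R : Type} (key : X → K) (g : X → R) (hk : (Set.range key).Finite)
    (h : ∀ x x', key x = key x' → g x = g x') : (Set.range g).Finite := by
  classical
  rcases isEmpty_or_nonempty X with hX | ⟨⟨x0⟩⟩
  · rw [Set.range_eq_empty]
    exact Set.finite_empty
  · refine (hk.image fun k => if hx : ∃ x, key x = k then g hx.choose else g x0).subset ?_
    rintro _ ⟨x, rfl⟩
    refine ⟨key x, ⟨x, rfl⟩, ?_⟩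
    have hx : ∃ x', key x' = key x := ⟨x, rfl⟩
    change (if hx : ∃ x', key x' = key x then g hx.choose else g x0) = g x
    rw [dif_pos hx]
    exact h _ _ hx.choose_spec

/-- Windows with a bounded number of cuts over a fixed word are star-free. -/
theorem win_sf [Finite α] {f : List α → τ} (hfw : FS w) (haw : AP w w) (hff : FS f)
    (haf : AP w f) (c1 : List α) (m : ℕ) (P : ℕ → Prop) (hP : ∀ k, P k → k ≤ m) (T : Set τ) :
    SH 0 {u : List α | P (nc w u.reverse c1) ∧ f (u.reverse ++ c1) ∈ T} := by
  classical
  apply sf_of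
  · -- finitely many quotients
    refine finite_of_key (fun x : List α => (min (nc w x.reverse c1) (m + 1),
      (fun Y => w (Y ++ (x.reverse ++ c1))), fun Y => f (Y ++ (x.reverse ++ c1)))) _ ?_ ?_
    · refine ((Set.finite_Iic (m + 1)).prod (hfw.prod hff)).subset ?_
      rintro _ ⟨x, rfl⟩
      exact ⟨Nat.min_le_right _ _, ⟨_, rfl⟩, ⟨_, rfl⟩⟩
    · intro x x' h
      simp only [Prod.mk.injEq] at h
      obtain ⟨h1, h2, h3⟩ := h
      ext y
      change (P (nc w (x ++ y).reverse c1) ∧ f ((x ++ y).reverse ++ c1) ∈ T) ↔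
        (P (nc w (x' ++ y).reverse c1) ∧ f ((x' ++ y).reverse ++ c1) ∈ T)
      have e2 : nc w y.reverse (x.reverse ++ c1) = nc w y.reverse (x'.reverse ++ c1) :=
        nc_congr (fun Y _ => congrFun h2 Y) _
      have e3 := congrFun h3 y.reverse
      simp only [List.reverse_append, List.append_assoc, nc_append, e2, e3]
      refine and_congr_left fun _ => ?_
      rcases Nat.lt_or_ge (nc w x.reverse c1) (m + 1) with hlt | hge
      · have : nc w x.reverse c1 = nc w x'.reverse c1 := by omega
        rw [this]
      · have h4 : m + 1 ≤ nc w x'.reverse c1 := by omega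
        constructor
        · intro h; have := hP _ h; omega
        · intro h; have := hP _ h; omega
  · intro v
    obtain ⟨Nf, hNf⟩ := haf v.reverse
    obtain ⟨Nw, hNw⟩ := haw v.reverse
    set V := v.reverse with hV
    set K := max Nf (Nw + 1) with hK
    have hK1 : Nf ≤ K := le_max_left _ _
    have hK2 : Nw + 1 ≤ K := le_max_right _ _
    have step : ∀ k, K ≤ k → ∀ R Y, nc w (pw V k) (R ++ c1) = 0 →
        ((P (nc w (Y ++ pw V k ++ R) c1) ∧ f (Y ++ pw V k ++ R ++ c1) ∈ T) ↔
          (P (nc w (Y ++ pw V (k + 1) ++ R) c1) ∧ f (Y ++ pw V (k + 1) ++ R ++ c1) ∈ T)) := by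
      intro k hk R Y hu
      have e1 := hNf k (by omega) (R ++ c1) Y (unc_iff.mpr hu)
      have e2 := nc_pump hNw (k := k) (by omega) hu Y
      rw [nc_append (Y ++ pw V k) R, nc_append (Y ++ pw V (k + 1)) R, e2,
        List.append_assoc (Y ++ pw V k), List.append_assoc (Y ++ pw V (k + 1)), e1]
    refine ⟨(m + 1) * (K + 1), fun n hn x y => ?_⟩
    change (P (nc w (x ++ pw v n ++ y).reverse c1) ∧ f ((x ++ pw v n ++ y).reverse ++ c1) ∈ T) ↔
        (P (nc w (x ++ pw v (n + 1) ++ y).reverse c1) ∧
          f ((x ++ pw v (n + 1) ++ y).reverse ++ c1) ∈ T)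
    have hr : ∀ j, (x ++ pw v j ++ y).reverse = y.reverse ++ (pw V j ++ x.reverse) := by
      intro j
      rw [List.reverse_append, List.reverse_append, pw_reverse]
    rw [hr, hr]
    have hbd : ∀ j, P (nc w (y.reverse ++ (pw V j ++ x.reverse)) c1) →
        nc w (pw V j) (x.reverse ++ c1) ≤ m := by
      intro j h
      have := hP _ h
      rw [nc_append, nc_append] at this
      omega
    have hre : ∀ a b j, y.reverse ++ (pw V (a + j + b) ++ x.reverse) =
        (y.reverse ++ pw V a) ++ pw V j ++ (pw V b ++ x.reverse) := by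
      intro a b j
      rw [pw_add, pw_add]
      simp
    constructor
    · intro h
      obtain ⟨a, b, hab, hu⟩ := chunk m n _ hn (hbd n h.1)
      rw [← List.append_assoc] at hu
      have h' := (step (K + 1) (by omega) (pw V b ++ x.reverse) (y.reverse ++ pw V a) hu)
      rw [← hre, ← hre, ← hab] at h'
      have e : a + (K + 1 + 1) + b = n + 1 := by omega
      rw [e] at h'
      exact h'.mp h
    · intro h
      obtain ⟨a, b, hab, hu⟩ := chunk (K := K + 1) m (n + 1) _ (by omega) (hbd (n + 1) h.1)
      rw [← List.append_assoc] at hu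
      have hu' : nc w (pw V K) (pw V b ++ x.reverse ++ c1) = 0 := by
        rw [pw_succ, nc_append] at hu
        omega
      have h' := (step K le_rfl (pw V b ++ x.reverse) (y.reverse ++ pw V a) hu')
      rw [← hre, ← hre, ← hab] at h'
      have e : a + K + b = n := by omega
      rw [e] at h'
      exact h'.mpr h

end basic

section cuts

variable {w : List α → ZMod p}

theorem nc_rt (hr : Rt w w) {c c' : List α} (hc : w c ≠ 0) (hc' : w c' ≠ 0) (S : List α) :
    nc w S c = nc w S c' := nc_congr (fun Y hY => hr Y c c' hc hc' hY) S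

/-- exactly `n` cuts above some cut -/
theorem exists_cut : ∀ (v : List α) (n : ℕ), n + 1 ≤ nc w v [] →
    ∃ S c, v = S ++ c ∧ w c ≠ 0 ∧ nc w S c = n := by
  intro v
  induction v with
  | nil => intro n h; simp [nc] at h
  | cons x v ih =>
    intro n h
    rw [nc] at h
    by_cases hx : w (x :: v ++ []) = 0
    · rw [if_pos hx] at h
      obtain ⟨S, c, h1, h2, h3⟩ := ih n (by omega)
      refine ⟨x :: S, c, by rw [h1]; rfl, h2, ?_⟩
      rw [nc, h3, List.cons_append, ← h1, if_pos (by simpa using hx), Nat.add_zero]
    · rw [if_neg hx] at h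
      cases n with
      | zero => exact ⟨[], x :: v, rfl, by simpa using hx, rfl⟩
      | succ n =>
        obtain ⟨S, c, h1, h2, h3⟩ := ih n (by omega)
        refine ⟨x :: S, c, by rw [h1]; rfl, h2, ?_⟩
        rw [nc, h3, List.cons_append, ← h1, if_neg (by simpa using hx)]

/-- The language of the cuts. -/
theorem cuts_sh [Finite α] (hfw : FS w) (haw : AP w w) (hr : Rt w w) :
    SH 1 {u : List α | w u.reverse ≠ 0} := by
  classical
  by_cases hex : ∃ c0, w c0 ≠ 0
  swap
  · have : {u : List α | w u.reverse ≠ 0} = ∅ := by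
      ext u
      simp only [Set.mem_ofPred_eq, Set.mem_empty_iff_false, iff_false]
      exact fun h => hex ⟨_, h⟩
    rw [this]
    exact SH.empty
  obtain ⟨c0, hc0⟩ := hex
  set I : Set (List α) := {u : List α | nc w u.reverse [] ≤ 1 ∧ w (u.reverse ++ []) ∈ ({0}ᶜ : Set (ZMod p))}
    with hI
  set D : Set (List α) := {u : List α | nc w u.reverse c0 = 1 ∧ w (u.reverse ++ c0) ∈ ({0}ᶜ : Set (ZMod p))}
    with hD
  have hIs : SH 0 I := win_sf hfw haw hfw haw [] 1 (fun k => k ≤ 1) (fun k h => h) _
  have hDs : SH 0 D := win_sf hfw haw hfw haw c0 1 (fun k => k = 1) (fun k h => h.le) _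
  have hEq : {u : List α | w u.reverse ≠ 0} = cat I (kst D) := by
    ext u
    constructor
    · intro hu
      have hu : w u.reverse ≠ 0 := hu
      -- induction on the length
      obtain ⟨n, hn⟩ : ∃ n, u.length ≤ n := ⟨_, le_rfl⟩
      induction n generalizing u with
      | zero =>
        have : u = [] := List.length_eq_zero_iff.mp (by omega)
        subst this
        refine ⟨[], ⟨?_, ?_⟩, [], H259.kst_nil _, rfl⟩
        · simp [nc]
        · simpa using hu
      | succ n ih =>
        rcases Nat.lt_or_ge 1 (nc w u.reverse []) with hlt | hge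
        · obtain ⟨S, c, h1, h2, h3⟩ := exists_cut (w := w) u.reverse 1 (by omega)
          have e : u = c.reverse ++ S.reverse := by
            have := congrArg List.reverse h1
            simpa using this
          have hSne : S ≠ [] := by
            rintro rfl
            simp [nc] at h3
          have hSl : 0 < S.length := List.length_pos_iff.mpr hSne
          have hc : w c.reverse.reverse ≠ 0 := by rwa [List.reverse_reverse]
          have hlen : c.reverse.length ≤ n := by
            have := congrArg List.length e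
            rw [List.length_append, List.length_reverse, List.length_reverse] at this
            rw [List.length_reverse]
            omega
          obtain ⟨i, hi, d, hd, hid⟩ := ih c.reverse hc hc hlen
          refine ⟨i, hi, d ++ S.reverse, ?_, by rw [← List.append_assoc, hid, ← e]⟩
          apply H259.kst_append hd
          apply H259.kst_of_mem
          refine ⟨?_, ?_⟩
          · rw [List.reverse_reverse, ← nc_rt hr h2 hc0]
            exact h3
          · rw [List.reverse_reverse, Set.mem_compl_iff, Set.mem_singleton_iff,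
              ← hr S c c0 h2 hc0 hSne, ← h1]
            exact hu
        · refine ⟨u, ⟨hge, ?_⟩, [], H259.kst_nil _, by simp⟩
          simpa using hu
    · rintro ⟨i, hi, d, ⟨L, hL, rfl⟩, rfl⟩
      have hi' : w i.reverse ≠ 0 := by
        have := hi.2
        simpa using this
      clear hi
      induction L generalizing i with
      | nil => simpa using hi'
      | cons d L ih =>
        rw [List.flatten_cons, ← List.append_assoc]
        apply ih
        · exact fun u hu => hL u (List.mem_cons_of_mem _ hu)
        · have hd := hL d List.mem_cons_self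
          have hdne : d.reverse ≠ [] := by
            intro h
            have h1 := hd.1
            rw [h] at h1
            simp [nc] at h1
          rw [List.reverse_append, hr d.reverse i.reverse c0 hi' hc0 hdne]
          have := hd.2
          simpa using this
  rw [hEq]
  exact (hIs.mono (Nat.zero_le _)).cat hDs.kst

/-- Row (A): the local functions of a stage have height at most one. -/
theorem lc_sh [Finite α] {G : List α → τ} (hfw : FS w) (haw : AP w w) (hr : Rt w w)
    (hfG : FS G) (haG : AP w G) {n : ℕ} (hm : Mem w n G) (T : Set τ) :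
    SH 1 {u : List α | G u.reverse ∈ T} := by
  classical
  have h1 : SH 0 {u : List α | nc w u.reverse [] ≤ n ∧ G (u.reverse ++ []) ∈ T} :=
    win_sf hfw haw hfG haG [] n (fun k => k ≤ n) (fun k h => h) _
  by_cases hex : ∃ c0, w c0 ≠ 0
  swap
  · have : {u : List α | G u.reverse ∈ T} =
        {u : List α | nc w u.reverse [] ≤ n ∧ G (u.reverse ++ []) ∈ T} := by
      ext u
      simp only [Set.mem_ofPred_eq, List.append_nil]
      refine (and_iff_right ?_).symm
      have h0 : nc w u.reverse [] = 0 := by
        rw [← unc_iff]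
        intro B _ _
        by_contra h
        exact hex ⟨_, h⟩
      omega
    rw [this]
    exact h1.of_zero
  obtain ⟨c0, hc0⟩ := hex
  have h2 : SH 0 {u : List α | nc w u.reverse c0 = n ∧ G (u.reverse ++ c0) ∈ T} :=
    win_sf hfw haw hfG haG c0 n (fun k => k = n) (fun k h => h.le) _
  have hEq : {u : List α | G u.reverse ∈ T} =
      {u : List α | nc w u.reverse [] ≤ n ∧ G (u.reverse ++ []) ∈ T} ∪
        cat {u : List α | w u.reverse ≠ 0}
          {u : List α | nc w u.reverse c0 = n ∧ G (u.reverse ++ c0) ∈ T} := by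
    ext u
    constructor
    · intro hu
      rcases Nat.lt_or_ge n (nc w u.reverse []) with hlt | hge
      · right
        obtain ⟨S, c, h3, h4, h5⟩ := exists_cut (w := w) u.reverse n (by omega)
        refine ⟨c.reverse, by simpa using h4, S.reverse, ⟨?_, ?_⟩, ?_⟩
        · rw [List.reverse_reverse, ← nc_rt hr h4 hc0]
          exact h5
        · rw [List.reverse_reverse, ← hm S c c0 h4 hc0 h5.ge, ← h3]
          exact hu
        · have := congrArg List.reverse h3
          simpa using this.symm
      · left
        exact ⟨hge, by simpa using hu⟩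
    · rintro (⟨-, h⟩ | ⟨c, hc, s, ⟨h3, h4⟩, rfl⟩)
      · simpa using h
      · have hc : w c.reverse ≠ 0 := hc
        change G (c ++ s).reverse ∈ T
        rw [List.reverse_append, hm s.reverse c.reverse c0 hc hc0 ?_]
        · exact h4
        · rw [nc_rt hr hc hc0]; exact h3.ge
  rw [hEq]
  exact h1.of_zero.union ((cuts_sh hfw haw hr).cat h2.of_zero)

end cuts

end Vale.Agent.P329.H483
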